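import Vale.Agent.P183.ClassifyDefs

namespace Vale.Agent.P183

theorem tabChunk_128 : tabChunk 128 = true := by decide +kernel

theorem chunk_128 : chunk 128 = true := by decide +kernel

theorem chunk_160 : chunk 160 = true := by decide +kernel

theorem chunk_192 : chunk 192 = true := by decide +kernel

theorem chunk_224 : chunk 224 = true := by decide +kernel

end Vale.Agent.P183
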