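import Vale.Agent.P183.ClassifyDefs

namespace Vale.Agent.P183

theorem tabChunk_256 : tabChunk 256 = true := by decide +kernel

theorem chunk_256 : chunk 256 = true := by decide +kernel

theorem chunk_288 : chunk 288 = true := by decide +kernel

theorem chunk_320 : chunk 320 = true := by decide +kernel

theorem chunk_352 : chunk 352 = true := by decide +kernel

end Vale.Agent.P183
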