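import Vale.Agent.P183.ClassifyDefs

namespace Vale.Agent.P183

theorem tabChunk_384 : tabChunk 384 = true := by decide +kernel

theorem chunk_384 : chunk 384 = true := by decide +kernel

theorem chunk_416 : chunk 416 = true := by decide +kernel

theorem chunk_448 : chunk 448 = true := by decide +kernel

theorem chunk_480 : chunk 480 = true := by decide +kernel

end Vale.Agent.P183
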