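import Vale.Agent.P183.ClassifyDefs

namespace Vale.Agent.P183

theorem tabChunk_512 : tabChunk 512 = true := by decide +kernel

theorem chunk_512 : chunk 512 = true := by decide +kernel

theorem chunk_544 : chunk 544 = true := by decide +kernel

theorem chunk_576 : chunk 576 = true := by decide +kernel

theorem chunk_608 : chunk 608 = true := by decide +kernel

end Vale.Agent.P183
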