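import Vale.Agent.P183.ClassifyDefs

namespace Vale.Agent.P183

theorem tabChunk_640 : tabChunk 640 = true := by decide +kernel

theorem chunk_640 : chunk 640 = true := by decide +kernel

theorem chunk_672 : chunk 672 = true := by decide +kernel

theorem chunk_704 : chunk 704 = true := by decide +kernel

theorem chunk_736 : chunk 736 = true := by decide +kernel

end Vale.Agent.P183
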