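import Vale.Agent.P183.ClassifyDefs

namespace Vale.Agent.P183

theorem tabChunk_768 : tabChunk 768 = true := by decide +kernel

theorem chunk_768 : chunk 768 = true := by decide +kernel

theorem chunk_800 : chunk 800 = true := by decide +kernel

theorem chunk_832 : chunk 832 = true := by decide +kernel

theorem chunk_864 : chunk 864 = true := by decide +kernel

end Vale.Agent.P183
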