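import Vale.Agent.P183.ClassifyDefs

namespace Vale.Agent.P183

theorem tabChunk_896 : tabChunk 896 = true := by decide +kernel

theorem chunk_896 : chunk 896 = true := by decide +kernel

theorem chunk_928 : chunk 928 = true := by decide +kernel

theorem chunk_960 : chunk 960 = true := by decide +kernel

theorem chunk_992 : chunk 992 = true := by decide +kernel

end Vale.Agent.P183
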