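import Vale.Agent.P183.ClassifyDefs

namespace Vale.Agent.P183

theorem tabChunk_0 : tabChunk 0 = true := by decide +kernel

theorem chunk_0 : chunk 0 = true := by decide +kernel

theorem chunk_32 : chunk 32 = true := by decide +kernel

theorem chunk_64 : chunk 64 = true := by decide +kernel

theorem chunk_96 : chunk 96 = true := by decide +kernel

end Vale.Agent.P183
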